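import Vale.Agent.P037.AltBlock

/-!
Polynomial removal for block patterns over an arbitrary word: all `k × k` patterns whose
rows are, top to bottom, a word `u` (first `t` rows) followed by its complement (the other
rows), the transposes of these, and all patterns made of two row blocks and two column blocks.
-/

open Vale.Agent.P037 in
/-- Let `H` be a `k × k` binary pattern such that either
(a) for some `0 < t < k` and some word `u`, the first `t` rows of `H` equal `u` and the other rows
equal the complement of `u`; or (b) the transpose of `H` has the form (a); or (c) for some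
`0 < t, t' < k` the value `H i j` depends only on whether `i < t` and whether `j < t'`.
Then there are constants `c > 0`, `C > 0` such that whenever `A` is `ε`-far from `H`-free,
`A` has at least `c * ε ^ C * n ^ (2 * k)` ordered copies of `H`. -/
theorem Vale.Agent.Results.P037.ABlockWords.result :
    ∀ (k : ℕ) (H : Fin k → Fin k → Bool),
      ((∃ (t : ℕ) (u : Fin k → Bool), 0 < t ∧ t < k ∧
          ∀ i j, H i j = if i.val < t then u j else !u j) ∨
       (∃ (t : ℕ) (u : Fin k → Bool), 0 < t ∧ t < k ∧
          ∀ i j, H i j = if j.val < t then u i else !u i) ∨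
       (∃ (t t' : ℕ) (M : Bool → Bool → Bool), 0 < t ∧ t < k ∧ 0 < t' ∧ t' < k ∧
          ∀ i j, H i j = M (decide (i.val < t)) (decide (j.val < t')))) →
      ∃ (c : ℝ) (C : ℕ), 0 < c ∧ 0 < C ∧ ∀ (n : ℕ) (A : Fin n → Fin n → Bool) (ε : ℝ),
        0 < ε → ε < 1 →
        (∀ B : Fin n → Fin n → Bool, copies H B = 0 → ε * (n : ℝ) ^ 2 ≤ diffCount A B) →
        c * ε ^ C * (n : ℝ) ^ (2 * k) ≤ copies H A := by
  intro k H h
  apply square_of_polyRem
  rcases h with ⟨t, u, h0, h1, hH⟩ | ⟨t, u, h0, h1, hH⟩ | ⟨t, t', M, h0, h1, h0', h1', hH⟩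
  · exact polyRem_rows H t u h0 h1 hH
  · exact polyRem_cols H t u h0 h1 hH
  · exact polyRem_blocks H t t' M h0 h1 h0' h1' hH
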