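import Vale.Agent.P037.Sym

/-!
Polynomial removal for every `2 × 2` ordered binary pattern.
-/

open Vale.Agent.P037 in
/-- For every `2 × 2` binary pattern `H`: if `A` is `ε`-far from being free of ordered copies
of `H`, then `A` has at least `ε ^ 20 / 10 ^ 26 * n ^ 4` ordered copies of `H`. -/
theorem Vale.Agent.Results.P037.All2x2.result :
    ∀ (H : Fin 2 → Fin 2 → Bool) (n : ℕ), 1 ≤ n → ∀ (A : Fin n → Fin n → Bool) (ε : ℝ),
      0 < ε → ε < 1 →
      (∀ B : Fin n → Fin n → Bool, copies H B = 0 → ε * (n : ℝ) ^ 2 ≤ diffCount A B) →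
      ε ^ 20 / 10 ^ 26 * (n : ℝ) ^ 4 ≤ copies H A := by
  intro H
  exact rem_all H

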