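import Vale.Agent.P037.DiagMain

/-!
Polynomial removal for the `2 × 2` ordered binary pattern `[[1,0],[0,1]]`.
-/

open Vale.Agent.P037 in
/-- If `A` is `ε`-far from being free of ordered copies of the pattern `[[1,0],[0,1]]`, then `A`
has at least `ε ^ 10 / (144 * 10 ^ 8) * n ^ 4` ordered copies of it. -/
theorem Vale.Agent.Results.P037.DiagPattern.result :
    ∀ (n : ℕ) (A : Fin n → Fin n → Bool) (ε : ℝ), 1 ≤ n → 0 < ε → ε < 1 →
      (∀ B : Fin n → Fin n → Bool,
        copies ![![true, false], ![false, true]] B = 0 → ε * (n : ℝ) ^ 2 ≤ diffCount A B) →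
      ε ^ 10 / (144 * 10 ^ 8) * (n : ℝ) ^ 4 ≤ copies ![![true, false], ![false, true]] A := by
  intro n A ε hn hε hε1 hfar
  exact diag_removal hn A ε hε hε1 hfar
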