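import Vale.Agent.P037.GammaMain

namespace Vale.Agent.Results.P037.GammaPattern

open Vale.Agent.P037

/-- Polynomial removal for the ordered pattern `[[1,1],[1,0]]`. -/
theorem result {n : ℕ} (hn : 1 ≤ n) (A : Fin n → Fin n → Bool) (ε : ℝ) (hε : 0 < ε) (hε1 : ε < 1)
    (hfar : ∀ B : Fin n → Fin n → Bool,
      copies (![![true, true], ![true, false]] : Fin 2 → Fin 2 → Bool) B = 0 →
        ε * n ^ 2 ≤ diffCount A B) :
    ε ^ 20 / 10 ^ 26 * n ^ 4
      ≤ copies (![![true, true], ![true, false]] : Fin 2 → Fin 2 → Bool) A :=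
  gamma_removal hn A ε hε hε1 hfar

end Vale.Agent.Results.P037.GammaPattern
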